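import Mathlib
import Vale.Agent.Lib.P028.ErdosVaaler

/-!
P028 (weak inhomogeneous Duffin-Schaeffer): the Erdős–Vaaler type theorem for every shift of
finite Diophantine type, with unweighted divergence.

Let `γ` be a real number with `‖k γ‖ ≥ c k^(-τ)` for all integers `k ≥ 1`, where `c > 0`, `τ` is
real and `‖t‖ = |t - round t|` is the distance from `t` to the nearest integer (a real number
has this property for suitable `c`, `τ` exactly when it is irrational and not a Liouville
number).  Let `ψ : ℕ → [0, ∞)` be arbitrary (no monotonicity) and `K ≥ 0`.  If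

`∑_q min (ψ q) (K / q) = ∞`,

then the set
`W_γ(ψ) = {x : |q x - a - γ| < ψ q for infinitely many q, some integer a}`
has full Lebesgue measure.  In particular this holds whenever `ψ q ≤ K / q` for all `q` and
`∑ ψ q = ∞`.

Proof (in `Vale.Agent.Lib.P028`): the variance method with the resonant overlap estimate
(`Master`), and a bound `R(N) ≤ C₁ Ψ(N) + C₂` for the resonant gcd sums.  The latter splits
the denominators into cells (dyadic scale, dyadic level of `q ψ q`), and for a pair of cells
combines: the trivial bound for small common divisors; a main-term count of the solutions of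
`‖γ j - t‖ < δ` in long intervals from Dirichlet's theorem (`Bohr`); the gap principle for the
remaining divisors; and a fourth moment bound for the tail divisor sums
`∑_{d ∣ n, d > z} 1/d` (`FourthMoment`), which handles arbitrary subsets of a dyadic block.
-/

open MeasureTheory Filter

namespace Vale.Agent.Results.P028.A00_ErdosVaalerNonLiouville

theorem result (γ c τ K : ℝ) (hc : 0 < c) (hK : 0 ≤ K)
    (hγ : ∀ k : ℕ, 1 ≤ k → c ≤ (k : ℝ) ^ τ * |(k : ℝ) * γ - round ((k : ℝ) * γ)|)
    (ψ : ℕ → ℝ) (hψ : ∀ q, 0 ≤ ψ q)
    (hdiv : ¬ Summable (fun q : ℕ => min (ψ q) (K / (q : ℝ)))) :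
    ∀ᵐ x : ℝ ∂(volume : Measure ℝ),
      ∃ᶠ q : ℕ in atTop, ∃ a : ℤ, |(q : ℝ) * x - (a : ℝ) - γ| < ψ q :=
  Vale.Agent.Lib.P028.ae_frequently_of_finite_type_min γ c τ K hc hK hγ ψ hψ hdiv

end Vale.Agent.Results.P028.A00_ErdosVaalerNonLiouville
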