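import Mathlib
import Vale.Agent.Lib.P028.Master

/-!
P028 (weak inhomogeneous Duffin-Schaeffer): a resonant gcd quasi-independence criterion valid
for every real shift.

Fix a real shift `γ` and `ψ : ℕ → [0, ∞)` with `∑ ψ q = ∞`. Call a pair `1 ≤ m < n`
resonant when `gcd(m, n) ‖γ (n - m) / gcd(m, n)‖ < n ψ m + m ψ n`, where `‖t‖` is the distance
from `t` to the nearest integer. If, for some constant `C` and infinitely many `N`,

`∑_{resonant 1 ≤ m < n < N} gcd(m, n) min(ψ m / m, ψ n / n) ≤ C (∑_{n < N} ψ n)²`,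

then the set
`W_γ(ψ) = {x : |q x - a - γ| < ψ q for infinitely many q, some integer a}`
has full Lebesgue measure. No zero-one law is used: full measure comes from the invariance of
the `q`-th approximation set under the rotation by `1 / q`.
-/

open MeasureTheory Filter

namespace Vale.Agent.Results.P028.A0_ResonantGcdCriterion

/-- The distance from a real number to the nearest integer. -/
noncomputable def distInt (t : ℝ) : ℝ := |t - round t|

theorem result (γ : ℝ) (ψ : ℕ → ℝ) (hψ : ∀ q, 0 ≤ ψ q) (hdiv : ¬ Summable ψ) (C : ℝ)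
    (hC : ∃ᶠ N : ℕ in atTop,
      ∑ n ∈ Finset.range N, ∑ m ∈ Finset.Ico 1 n,
        (if (Nat.gcd m n : ℝ) * distInt (γ * ((n : ℝ) - (m : ℝ)) / (Nat.gcd m n : ℝ))
              < (n : ℝ) * ψ m + (m : ℝ) * ψ n
          then (Nat.gcd m n : ℝ) * min (ψ m / (m : ℝ)) (ψ n / (n : ℝ)) else 0)
        ≤ C * (∑ n ∈ Finset.range N, ψ n) ^ 2) :
    ∀ᵐ x : ℝ ∂(volume : Measure ℝ),
      ∃ᶠ q : ℕ in atTop, ∃ a : ℤ, |(q : ℝ) * x - (a : ℝ) - γ| < ψ q := by
  refine Vale.Agent.Lib.P028.ae_frequently_of_res_qia (fun _ => γ) ψ hψ C ?_ hdiv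
  refine hC.mono fun N hN => le_trans (le_of_eq ?_) hN
  refine Finset.sum_congr rfl fun n _ => Finset.sum_congr rfl fun m _ => ?_
  unfold Vale.Agent.Lib.P028.resWeight distInt
  have e : ((n : ℝ) * γ - (m : ℝ) * γ) / (Nat.gcd m n : ℝ)
      = γ * ((n : ℝ) - (m : ℝ)) / (Nat.gcd m n : ℝ) := by ring
  rw [e]

end Vale.Agent.Results.P028.A0_ResonantGcdCriterion
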