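import Mathlib
import Vale.Agent.Lib.P028.Sparse

/-!
P028 (weak inhomogeneous Duffin-Schaeffer): functions with pairwise coprime support,
every real shift.

If any two distinct positive integers in the support of `ψ` are coprime (for instance if
`ψ` is supported on the primes) and `∑ φ(q) ψ(q) / q` diverges, then for every real shift `γ`
the set `W_γ(ψ) = {x : |q x - a - γ| < ψ q for infinitely many q, some integer a}`
has full Lebesgue measure.
-/

open MeasureTheory Filter

namespace Vale.Agent.Results.P028.A_CoprimeSupport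

theorem result (γ : ℝ) (ψ : ℕ → ℝ) (hψ : ∀ q, 0 ≤ ψ q)
    (hcop : ∀ q q' : ℕ, 0 < q → q < q' → ψ q ≠ 0 → ψ q' ≠ 0 → Nat.Coprime q q')
    (hdiv : ¬ Summable (fun q : ℕ => (Nat.totient q : ℝ) * ψ q / (q : ℝ))) :
    ∀ᵐ x : ℝ ∂(volume : Measure ℝ),
      ∃ᶠ q : ℕ in atTop, ∃ a : ℤ, |(q : ℝ) * x - (a : ℝ) - γ| < ψ q := by
  classical
  have hC : ∀ n : ℕ, ψ n ≠ 0 →
      ∑ m ∈ (Finset.Ico 1 n).filter (fun m => ψ m ≠ 0), (Nat.gcd m n : ℝ) ≤ 1 * n := by
    intro n hn
    have h1 : ∑ m ∈ (Finset.Ico 1 n).filter (fun m => ψ m ≠ 0), (Nat.gcd m n : ℝ)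
        = ∑ _m ∈ (Finset.Ico 1 n).filter (fun m => ψ m ≠ 0), (1 : ℝ) := by
      refine Finset.sum_congr rfl fun m hm => ?_
      rw [Finset.mem_filter, Finset.mem_Ico] at hm
      have hc : Nat.Coprime m n := hcop m n hm.1.1 hm.1.2 hm.2 hn
      rw [Nat.Coprime] at hc
      rw [hc, Nat.cast_one]
    rw [h1, Finset.sum_const, nsmul_eq_mul, mul_one, one_mul]
    have h2 : ((Finset.Ico 1 n).filter (fun m => ψ m ≠ 0)).card ≤ (Finset.Ico 1 n).card :=
      Finset.card_filter_le _ _
    rw [Nat.card_Ico] at h2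
    have h3 : ((Finset.Ico 1 n).filter (fun m => ψ m ≠ 0)).card ≤ n := le_trans h2 (Nat.sub_le n 1)
    exact_mod_cast h3
  have hdiv' : ¬ Summable ψ := by
    intro hs
    apply hdiv
    refine Summable.of_nonneg_of_le (fun q => ?_) (fun q => ?_) hs
    · have := hψ q
      positivity
    · rcases Nat.eq_zero_or_pos q with hq | hq
      · subst hq
        simp [hψ 0]
      · have hqR : (0 : ℝ) < q := by exact_mod_cast hq
        rw [div_le_iff₀ hqR]
        have htot : (Nat.totient q : ℝ) ≤ q := by exact_mod_cast Nat.totient_le q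
        have := hψ q
        nlinarith
  exact Vale.Agent.Lib.P028.ae_frequently_of_gcd_sparse (fun _ => γ) ψ hψ 1 hC hdiv'

end Vale.Agent.Results.P028.A_CoprimeSupport
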