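import Mathlib
import Vale.Agent.Lib.P028.ErdosVaaler
import Vale.Agent.Lib.P028.Master
import Vale.Agent.Lib.P028.GcdSum

/-!
P028 (weak inhomogeneous Duffin-Schaeffer): four theorems on the set

`W(ψ) = {x : |q x - a - γ_q| < ψ q for infinitely many q, some integer a}`,

where `ψ : ℕ → [0, ∞)` is arbitrary (no monotonicity) and `γ_q` is a real target, constant
(`γ_q = γ`, the setting of the problem) or depending on `q`.  In each case `W(ψ)` has full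
Lebesgue measure.

1. Constant target `γ` with `‖k γ‖ ≥ c k^(-τ)` for all `k ≥ 1` (the irrational numbers that are
   not Liouville numbers), and divergence of `∑ min (ψ q) (K / q)` for some `K ≥ 0`.
2. Any targets, divergence of `∑ ψ q`, and, for some `C` and infinitely many `N`,
   `∑ gcd(m, n) min(ψ m / m, ψ n / n) ≤ C (∑_{n < N} ψ n)²`, the sum over the pairs
   `1 ≤ m < n < N` with `gcd(m, n) ‖(n γ_m - m γ_n) / gcd(m, n)‖ < n ψ m + m ψ n`.
3. Any targets, and divergence of `∑_{q ∈ S} ψ q` for a set `S` with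
   `∑_{m ∈ S, 1 ≤ m < n} gcd(m, n) ≤ C n` for all `n ∈ S`.
4. Any targets, and divergence of `∑ ψ q` over the integers `q` with at most `K` divisors.

Here `‖t‖` is the distance from `t` to the nearest integer.  No zero-one law is used: full
measure comes from the invariance of the `q`-th approximation set under the rotation by `1 / q`.
-/

open MeasureTheory Filter

namespace Vale.Agent.Results.P028.B_ShiftsOmnibus

/-- The distance from a real number to the nearest integer. -/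
noncomputable def distInt (t : ℝ) : ℝ := |t - round t|

theorem result :
    (∀ (γ c τ K : ℝ), 0 < c → 0 ≤ K →
      (∀ k : ℕ, 1 ≤ k → c ≤ (k : ℝ) ^ τ * distInt ((k : ℝ) * γ)) →
      ∀ ψ : ℕ → ℝ, (∀ q, 0 ≤ ψ q) →
      ¬ Summable (fun q : ℕ => min (ψ q) (K / (q : ℝ))) →
      ∀ᵐ x : ℝ ∂(volume : Measure ℝ),
        ∃ᶠ q : ℕ in atTop, ∃ a : ℤ, |(q : ℝ) * x - (a : ℝ) - γ| < ψ q) ∧
    (∀ (γ : ℕ → ℝ) (ψ : ℕ → ℝ), (∀ q, 0 ≤ ψ q) → ¬ Summable ψ → ∀ C : ℝ,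
      (∃ᶠ N : ℕ in atTop,
        ∑ n ∈ Finset.range N, ∑ m ∈ Finset.Ico 1 n,
          (if (Nat.gcd m n : ℝ)
                * distInt (((n : ℝ) * γ m - (m : ℝ) * γ n) / (Nat.gcd m n : ℝ))
                < (n : ℝ) * ψ m + (m : ℝ) * ψ n
            then (Nat.gcd m n : ℝ) * min (ψ m / (m : ℝ)) (ψ n / (n : ℝ)) else 0)
          ≤ C * (∑ n ∈ Finset.range N, ψ n) ^ 2) →
      ∀ᵐ x : ℝ ∂(volume : Measure ℝ),
        ∃ᶠ q : ℕ in atTop, ∃ a : ℤ, |(q : ℝ) * x - (a : ℝ) - γ q| < ψ q) ∧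
    (∀ (γ : ℕ → ℝ) (ψ : ℕ → ℝ), (∀ q, 0 ≤ ψ q) → ∀ (S : Set ℕ) (C : ℝ),
      (∀ n ∈ S, ∑ m ∈ Finset.Ico 1 n, S.indicator (fun m => (Nat.gcd m n : ℝ)) m
        ≤ C * (n : ℝ)) →
      ¬ Summable (S.indicator ψ) →
      ∀ᵐ x : ℝ ∂(volume : Measure ℝ),
        ∃ᶠ q : ℕ in atTop, ∃ a : ℤ, |(q : ℝ) * x - (a : ℝ) - γ q| < ψ q) ∧
    (∀ (γ : ℕ → ℝ) (ψ : ℕ → ℝ), (∀ q, 0 ≤ ψ q) → ∀ K : ℕ,
      ¬ Summable (fun q : ℕ => if (Nat.divisors q).card ≤ K then ψ q else 0) →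
      ∀ᵐ x : ℝ ∂(volume : Measure ℝ),
        ∃ᶠ q : ℕ in atTop, ∃ a : ℤ, |(q : ℝ) * x - (a : ℝ) - γ q| < ψ q) := by
  refine ⟨?_, ?_, ?_, ?_⟩
  · intro γ c τ K hc hK hγ ψ hψ hdiv
    exact Vale.Agent.Lib.P028.ae_frequently_of_finite_type_min γ c τ K hc hK hγ ψ hψ hdiv
  · intro γ ψ hψ hdiv C hC
    refine Vale.Agent.Lib.P028.ae_frequently_of_res_qia γ ψ hψ C ?_ hdiv
    refine hC.mono fun N hN => le_trans (le_of_eq ?_) hN
    refine Finset.sum_congr rfl fun n _ => Finset.sum_congr rfl fun m _ => ?_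
    unfold Vale.Agent.Lib.P028.resWeight distInt
    rfl
  · intro γ ψ hψ S C hS hdiv
    exact Vale.Agent.Lib.P028.ae_frequently_of_gcd_sparse_subset γ ψ hψ S C hS hdiv
  · intro γ ψ hψ K hdiv
    exact Vale.Agent.Lib.P028.ae_frequently_of_bounded_divisors γ ψ hψ K hdiv

end Vale.Agent.Results.P028.B_ShiftsOmnibus
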